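import Mathlib

open CategoryTheory CategoryTheory.Limits CategoryTheory.Abelian

universe u

namespace Vale.Agent.Results.P176.CoDelooping

variable {A : Type u} [Ring A]

/-- `IsCosyzygy n S X`: the module `X` is an `n`-th cosyzygy of `S`, i.e. there is an exact
sequence `0 → S → I⁰ → ⋯ → Iⁿ⁻¹ → X → 0` with all `Iʲ` injective (spliced from short exact
sequences with injective middle term). -/
def IsCosyzygy : ℕ → ModuleCat.{u} A → ModuleCat.{u} A → Prop
  | 0, S, X => Nonempty (S ≅ X)
  | n + 1, S, X => ∃ T : ShortComplex (ModuleCat.{u} A),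
      T.ShortExact ∧ Injective T.X₂ ∧ IsCosyzygy n S T.X₁ ∧ Nonempty (T.X₃ ≅ X)

/-- `CoDeloopingLE S N`: for some `n ≤ N`, some `n`-th cosyzygy of `S` is a retract of
`Y ⊞ J` with `J` injective and `Y` an `(n+1)`-st cosyzygy of some module `L`. -/
def CoDeloopingLE (S : ModuleCat.{u} A) (N : ℕ) : Prop :=
  ∃ n ≤ N, ∃ X Y J L : ModuleCat.{u} A,
    IsCosyzygy n S X ∧ IsCosyzygy (n + 1) L Y ∧ Injective J ∧ Nonempty (Retract X (Y ⊞ J))

/-- The little finitistic dimension of `A` is at most `N`. -/
def FindimLE (A : Type u) [Ring A] (N : ℕ) : Prop :=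
  ∀ M : ModuleCat.{u} A, Module.Finite A M →
    (∃ d : ℕ, HasProjectiveDimensionLE M d) → HasProjectiveDimensionLE M N

/-- vanishing of an Ext group -/
def ExtVanish (M X : ModuleCat.{u} A) (i : ℕ) : Prop := ∀ e : Ext M X i, e = 0

lemma extVanish_of_retract {M X Z : ModuleCat.{u} A} {i : ℕ} (r : Retract X Z)
    (h : ExtVanish M Z i) : ExtVanish M X i := by
  intro e
  have h1 : e = (e.comp (Ext.mk₀ r.i) (add_zero i)).comp (Ext.mk₀ r.r) (add_zero i) := by
    rw [Ext.comp_assoc_of_third_deg_zero, Ext.mk₀_comp_mk₀, r.retract, Ext.comp_mk₀_id]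
  rw [h1, h (e.comp (Ext.mk₀ r.i) (add_zero i)), Ext.zero_comp]

lemma extVanish_of_iso {M X Z : ModuleCat.{u} A} {i : ℕ} (e : X ≅ Z)
    (h : ExtVanish M Z i) : ExtVanish M X i :=
  extVanish_of_retract e.retract h

lemma extVanish_X₂ {M : ModuleCat.{u} A} {T : ShortComplex (ModuleCat.{u} A)} (hT : T.ShortExact)
    {i : ℕ} (h₁ : ExtVanish M T.X₁ i) (h₃ : ExtVanish M T.X₃ i) : ExtVanish M T.X₂ i := by
  intro x₂
  obtain ⟨x₁, rfl⟩ := Ext.covariant_sequence_exact₂ M hT x₂ (h₃ _)
  rw [h₁ x₁, Ext.zero_comp]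

lemma extVanish_injective (M J : ModuleCat.{u} A) [Injective J] (i : ℕ) :
    ExtVanish M J (i + 1) := fun e => e.eq_zero_of_injective

lemma extVanish_biprod {M Y J : ModuleCat.{u} A} {i : ℕ} (h₁ : ExtVanish M Y i)
    (h₂ : ExtVanish M J i) : ExtVanish M (Y ⊞ J) i :=
  extVanish_X₂ (ShortComplex.Splitting.ofHasBinaryBiproduct Y J).shortExact h₁ h₂

lemma extVanish_shift {M : ModuleCat.{u} A} {T : ShortComplex (ModuleCat.{u} A)}
    (hT : T.ShortExact) [Injective T.X₂] (i : ℕ) :
    ExtVanish M T.X₃ (i + 1) ↔ ExtVanish M T.X₁ (i + 2) := by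
  constructor
  · intro h x₁
    obtain ⟨x₃, rfl⟩ := Ext.covariant_sequence_exact₁ M hT x₁
      (Ext.eq_zero_of_injective _) (rfl : i + 1 + 1 = i + 2)
    rw [h x₃, Ext.zero_comp]
  · intro h x₃
    obtain ⟨x₂, rfl⟩ := Ext.covariant_sequence_exact₃ M hT x₃ (rfl : i + 1 + 1 = i + 2) (h _)
    rw [x₂.eq_zero_of_injective, Ext.zero_comp]

lemma extVanish_cosyzygy {M : ModuleCat.{u} A} (n : ℕ) :
    ∀ (S X : ModuleCat.{u} A) (i : ℕ), IsCosyzygy n S X →
      (ExtVanish M X (i + 1) ↔ ExtVanish M S (i + 1 + n)) := by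
  induction n with
  | zero =>
    intro S X i h
    obtain ⟨e⟩ := h
    exact ⟨fun h => extVanish_of_iso e h, fun h => extVanish_of_iso e.symm h⟩
  | succ n ih =>
    intro S X i h
    obtain ⟨T, hT, hI, hS, ⟨e⟩⟩ := h
    have h1 : ExtVanish M X (i + 1) ↔ ExtVanish M T.X₃ (i + 1) :=
      ⟨fun h => extVanish_of_iso e h, fun h => extVanish_of_iso e.symm h⟩
    have h2 := ih S T.X₁ (i + 1) hS
    have h3 : i + 1 + 1 + n = i + 1 + (n + 1) := by omega
    rw [h1, extVanish_shift hT i, h2, h3]


lemma extVanish_of_isZero {M X : ModuleCat.{u} A} (hX : IsZero X) (i : ℕ) : ExtVanish M X i := by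
  intro e
  rw [← e.comp_mk₀_id, hX.eq_of_src (𝟙 X) 0, Ext.mk₀_zero, Ext.comp_zero]

lemma shortExact_subtype_mkQ {X : Type u} [AddCommGroup X] [Module A X] (N : Submodule A X) :
    (ShortComplex.mk (ModuleCat.ofHom.{u} N.subtype) (ModuleCat.ofHom.{u} N.mkQ)
      (by ext; simp)).ShortExact where
  exact := (ShortComplex.ShortExact.moduleCat_exact_iff_function_exact _).mpr
    fun x ↦ by simp
  mono_f := (ModuleCat.mono_iff_injective _).mpr N.injective_subtype
  epi_g := (ModuleCat.epi_iff_surjective _).mpr N.mkQ_surjective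

lemma extVanish_of_isFiniteLength {M : ModuleCat.{u} A} {d : ℕ}
    (hS : ∀ S : ModuleCat.{u} A, IsSimpleModule A S → ExtVanish M S d)
    (X : Type u) [AddCommGroup X] [Module A X] (hX : IsFiniteLength A X) :
    ExtVanish M (ModuleCat.of A X) d := by
  induction hX with
  | @of_subsingleton X _ _ _ =>
    exact extVanish_of_isZero (ModuleCat.isZero_of_subsingleton _) d
  | @of_simple_quotient X _ _ N _ _ ih =>
    exact extVanish_X₂ (shortExact_subtype_mkQ N) ih
      (hS (ModuleCat.of A (X ⧸ N)) inferInstance)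

lemma hasProjectiveDimensionLT_of_forall_finite [IsNoetherianRing A] (n : ℕ) :
    ∀ (M : ModuleCat.{u} A), Module.Finite A M →
      (∀ L : ModuleCat.{u} A, Module.Finite A L → ExtVanish M L n) →
        HasProjectiveDimensionLT M n := by
  induction n with
  | zero =>
    intro M hM h
    have h0 : Ext.mk₀ (𝟙 M) = 0 := h M hM _
    have : IsZero M := by
      rw [IsZero.iff_id_eq_zero]
      exact (Ext.mk₀_eq_zero_iff _).mp h0
    exact this.hasProjectiveDimensionLT_zero
  | succ n ih =>
    intro M hM h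
    obtain ⟨m, f, surjf⟩ := Module.Finite.exists_fin' A M
    let S : ShortComplex (ModuleCat.{u} A) := f.shortComplexKer
    have hS : S.ShortExact := LinearMap.shortExact_shortComplexKer surjf
    have hP : Projective S.X₂ := by
      have : Module.Projective A (Fin m → A) := inferInstance
      exact (IsProjective.iff_projective _).mp this
    have hfin : Module.Finite A S.X₁ := by
      change Module.Finite A (LinearMap.ker f)
      infer_instance
    match n with
    | 0 =>
      rw [zero_add, ← projective_iff_hasProjectiveDimensionLT_one]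
      obtain ⟨f', hf'⟩ := Ext.covariant_sequence_exact₃ M hS (Ext.mk₀ (𝟙 M)) (zero_add 1)
        (h S.X₁ hfin _)
      obtain ⟨g, hg⟩ := (Ext.mk₀_bijective M S.X₂).2 f'
      rw [← hg, Ext.mk₀_comp_mk₀, (Ext.mk₀_bijective _ _).1.eq_iff] at hf'
      exact (Retract.mk g S.g hf').projective
    | n + 1 =>
      rw [hS.hasProjectiveDimensionLT_X₃_iff n hP]
      apply ih S.X₁ hfin
      intro L hL x₁
      obtain ⟨x₂, rfl⟩ := Ext.contravariant_sequence_exact₁ hS L x₁ (add_comm 1 (n + 1))
        (h L hL _)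
      rw [x₂.eq_zero_of_projective, Ext.comp_zero]

/-- one step of descent -/
lemma descent [IsArtinianRing A] {N : ℕ}
    (h : ∀ S : ModuleCat.{u} A, IsSimpleModule A S → CoDeloopingLE S N)
    (M : ModuleCat.{u} A) (hM : Module.Finite A M) (d : ℕ) (hd : N < d)
    (hpd : HasProjectiveDimensionLT M (d + 1)) : HasProjectiveDimensionLT M d := by
  apply hasProjectiveDimensionLT_of_forall_finite d M hM
  intro L hL
  have hsimple : ∀ S : ModuleCat.{u} A, IsSimpleModule A S → ExtVanish M S d := by
    intro S hS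
    obtain ⟨n, hn, X, Y, J, L', hX, hY, hJ, ⟨r⟩⟩ := h S hS
    obtain ⟨i, rfl⟩ : ∃ i, d = i + 1 + n := ⟨d - n - 1, by omega⟩
    rw [← extVanish_cosyzygy n S X i hX]
    apply extVanish_of_retract r
    apply extVanish_biprod _ (extVanish_injective M J i)
    rw [extVanish_cosyzygy (n + 1) L' Y i hY]
    intro e
    exact e.eq_zero_of_hasProjectiveDimensionLT (i + 1 + n + 1) (by omega)
  have hfl : IsFiniteLength A L := by
    rw [isFiniteLength_iff_isNoetherian_isArtinian]
    exact ⟨inferInstance, inferInstance⟩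
  exact extVanish_of_isFiniteLength hsimple L hfl

/-- **Co-delooping bound for the little finitistic dimension.**  Let `A` be a left artinian ring
(for instance a finite-dimensional algebra over a field, or an Artin algebra).  If every simple left
`A`-module `S` has co-delooping level at most `N`, then every finitely generated left `A`-module of
finite projective dimension has projective dimension at most `N`. -/
theorem result (A : Type u) [Ring A] [IsArtinianRing A] (N : ℕ)
    (h : ∀ S : ModuleCat.{u} A, IsSimpleModule A S → CoDeloopingLE S N) :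
    FindimLE A N := by
  intro M hM ⟨d, hd⟩
  have key : ∀ k : ℕ, HasProjectiveDimensionLT M (N + 1 + k) → HasProjectiveDimensionLT M (N + 1) := by
    intro k
    induction k with
    | zero => exact fun h => h
    | succ k ih =>
      intro hk
      exact ih (descent h M hM (N + 1 + k) (by omega) hk)
  apply key d
  exact hasProjectiveDimensionLT_of_ge M (d + 1) (N + 1 + d) (by omega)

end Vale.Agent.Results.P176.CoDelooping
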